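import Crest.Agent.S0326Lib.Core

set_option autoImplicit false

open scoped InnerProductSpace ENNReal
open MeasureTheory

namespace Crest.Agent.S0326Lib

/-- The continuity of the determinant of a continuous family of endomorphisms. -/
lemma continuousOn_det (S : Set E2) (f : E2 → (E2 →L[ℝ] E2)) (hf : ContinuousOn f S) :
    ContinuousOn (fun p => LinearMap.det (f p).toLinearMap) S := by
  have h : (fun p => LinearMap.det (f p).toLinearMap) =
      fun p => (f p E0) 0 * (f p E1) 1 - (f p E1) 0 * (f p E0) 1 := by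
    funext p; exact det_eq (f p)
  rw [h]
  have h0 : ContinuousOn (fun p => f p E0) S := hf.clm_apply continuousOn_const
  have h1 : ContinuousOn (fun p => f p E1) S := hf.clm_apply continuousOn_const
  have c0 := continuous_coord 0
  have c1 := continuous_coord 1
  exact ((c0.comp_continuousOn h0).mul (c1.comp_continuousOn h1)).sub
    ((c0.comp_continuousOn h1).mul (c1.comp_continuousOn h0))

/-- Summation step: from per cell estimates to the integral. -/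
theorem sum_integral (D W : Set E2) (hD : IsCompact D) (K₀ : Set E2) (hK₀ : IsCompact K₀)
    (φ : E2 → ℝ) (hφ : ContinuousOn φ K₀) (hφ1 : ∀ x, φ x ≤ 1) (hφ0 : ∀ x, 0 ≤ φ x)
    (hK₀W : K₀ ⊆ W) (hW : MeasurableSet W)
    (ρ ε₀ : ℝ) (hρ : 0 < ρ) (K : Finset (ℤ × ℤ))
    (hKK₀ : ∀ k ∈ K, cell ρ k ⊆ K₀)
    (hDK : ∀ x ∈ D, ∃ k ∈ K, x ∈ cell ρ k)
    (hdiff : (volume (W \ D)).toReal ≤ ε₀) (hWfin : volume W ≠ ⊤) :
    ∑ k ∈ K, ∫ x in cell ρ k, φ x ≤ (∫ x in D, φ x) + ε₀ ∧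
      (K.card : ℝ) * ρ ^ 2 ≤ (volume W).toReal := by
  classical
  let Z : Set E2 := ⋃ k ∈ K, cell ρ k
  have hZK₀ : Z ⊆ K₀ := by
    intro x hx
    simp only [Z, Set.mem_iUnion, exists_prop] at hx
    obtain ⟨k, hk, hxk⟩ := hx
    exact hKK₀ k hk hxk
  have hZW : Z ⊆ W := hZK₀.trans hK₀W
  have hint : IntegrableOn φ K₀ := hφ.integrableOn_compact hK₀
  have hdisj : Set.Pairwise (K : Set (ℤ × ℤ)) (Function.onFun Disjoint (cell ρ)) := by
    intro k _ k' _ hne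
    exact cell_disjoint ρ hρ k k' hne
  have hZm : MeasurableSet Z := Finset.measurableSet_biUnion K (fun k _ => cell_measurable ρ k)
  have hsum : ∫ x in Z, φ x = ∑ k ∈ K, ∫ x in cell ρ k, φ x := by
    apply integral_biUnion_finset K (fun k _ => cell_measurable ρ k) hdisj
    intro k hk
    exact hint.mono_set (hKK₀ k hk)
  have hDZ : D ⊆ Z := by
    intro x hx
    obtain ⟨k, hk, hxk⟩ := hDK x hx
    simp only [Z, Set.mem_iUnion, exists_prop]
    exact ⟨k, hk, hxk⟩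
  constructor
  · rw [← hsum]
    have hsplit : ∫ x in Z \ D, φ x = (∫ x in Z, φ x) - ∫ x in D, φ x :=
      integral_diff hD.measurableSet (hint.mono_set hZK₀) hDZ
    have hbound : ∫ x in Z \ D, φ x ≤ (volume (Z \ D)).toReal := by
      have hfin : volume (Z \ D) ≠ ⊤ := by
        refine ne_top_of_le_ne_top hWfin (measure_mono (Set.sdiff_subset.trans hZW))
      have := setIntegral_mono_on (s := Z \ D) (f := φ) (g := fun _ => (1 : ℝ))
        (hint.mono_set (Set.sdiff_subset.trans hZK₀)) (integrableOn_const hfin)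
        (hZm.diff hD.measurableSet) (fun x _ => hφ1 x)
      simpa [Measure.real] using this
    have hle : (volume (Z \ D)).toReal ≤ (volume (W \ D)).toReal :=
      ENNReal.toReal_mono (ne_top_of_le_ne_top hWfin (measure_mono Set.sdiff_subset))
        (measure_mono (Set.sdiff_subset_sdiff_left hZW))
    linarith
  · have hvol : volume Z = ∑ k ∈ K, volume (cell ρ k) :=
      measure_biUnion_finset hdisj (fun k _ => cell_measurable ρ k)
    have h2 : volume Z = (K.card : ℝ≥0∞) * ENNReal.ofReal (ρ ^ 2) := by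
      rw [hvol]
      simp [cell_volume ρ hρ]
    have h3 : (volume Z).toReal = (K.card : ℝ) * ρ ^ 2 := by
      rw [h2, ENNReal.toReal_mul, ENNReal.toReal_natCast, ENNReal.toReal_ofReal (by positivity)]
    rw [← h3]
    exact ENNReal.toReal_mono hWfin (measure_mono hZW)


set_option maxHeartbeats 2000000 in
/-- The main construction, for nonempty `D`. -/
theorem master
    (D : Set E2) (hD : IsCompact D) (hne : D.Nonempty)
    (V : E2 → E2) (U : Set E2)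
    (hU : IsOpen U) (hDU : D ⊆ U) (hV : ContDiffOn ℝ 1 V U) (L h : ℝ) (hL : 0 < L)
    (htr : ∀ p ∈ D, LinearMap.trace ℝ E2 (fderiv ℝ V p).toLinearMap = 0)
    (hdet : ∀ p ∈ D, -(L ^ 2)⁻¹ < LinearMap.det (fderiv ℝ V p).toLinearMap ∧
      LinearMap.det (fderiv ℝ V p).toLinearMap ≤ 0)
    (ε : ℝ) (hε : 0 < ε) :
    ∃ (ι : Type) (_ : Fintype ι) (c a b g : ι → E2),
      (∀ i, a i ≠ 0 ∧ ‖b i‖ = ‖a i‖ ∧ ⟪a i, b i⟫_ℝ = 0) ∧
      {z : ℝ × E2 | ∃ p ∈ D, |z.1| ≤ L ∧ z.2 = p + z.1 • V p} ⊆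
        ⋃ i, {z : ℝ × E2 | ∃ x ∈ Set.Icc (0 : ℝ) 1, ∃ y ∈ Set.Icc (0 : ℝ) 1,
          z.2 = c i + x • a i + y • b i + z.1 • g i} ∧
      ∑ i, ‖a i‖ ^ 2 / Real.sqrt (1 + (g i 0) ^ 2 + h ^ 2 * (g i 1) ^ 2) ≤
        (∫ p in D, J h (V p)) + ε := by
  classical
  -- the open set `W`
  obtain ⟨ε₀, hε₀def⟩ : ∃ ε₀ : ℝ, ε₀ = ε / 4 := ⟨_, rfl⟩
  have hε₀ : 0 < ε₀ := by rw [hε₀def]; positivity
  have hvolD : volume D ≠ ⊤ := hD.measure_lt_top.ne
  obtain ⟨W₁, hDW₁, hW₁o, hW₁vol⟩ := Set.exists_isOpen_lt_add D hvolD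
    (ε := ENNReal.ofReal ε₀) (by simpa using hε₀)
  let W := W₁ ∩ U
  have hWo : IsOpen W := hW₁o.inter hU
  have hDW : D ⊆ W := Set.subset_inter hDW₁ hDU
  have hWvol : volume W < volume D + ENNReal.ofReal ε₀ :=
    lt_of_le_of_lt (measure_mono Set.inter_subset_left) hW₁vol
  have hWfin : volume W ≠ ⊤ := hWvol.ne_top
  obtain ⟨VW, hVW⟩ : ∃ VW : ℝ, VW = (volume W).toReal := ⟨_, rfl⟩
  have hVW0 : 0 ≤ VW := by rw [hVW]; exact ENNReal.toReal_nonneg
  have hdiff : (volume (W \ D)).toReal ≤ ε₀ := by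
    have h1 : volume (W \ D) = volume W - volume D :=
      measure_diff hDW hD.measurableSet.nullMeasurableSet hvolD
    have h2 : volume (W \ D) ≤ ENNReal.ofReal ε₀ := by
      rw [h1]; exact tsub_le_iff_left.mpr hWvol.le
    exact ENNReal.toReal_le_of_le_ofReal hε₀.le h2
  -- thickening
  obtain ⟨r₀, hr₀, hthick⟩ := hD.exists_cthickening_subset_open hWo hDW
  set K₀ := Metric.cthickening r₀ D with hK₀def
  have hK₀ : IsCompact K₀ := hD.cthickening
  have hK₀U : K₀ ⊆ U := hthick.trans Set.inter_subset_right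
  have hDK₀ : D ⊆ K₀ := Metric.self_subset_cthickening D
  have hclosedBall : ∀ p ∈ D, ∀ r, r ≤ r₀ → Metric.closedBall p r ⊆ K₀ := by
    intro p hp r hr x hx
    exact Metric.mem_cthickening_of_dist_le x p r₀ D hp ((Metric.mem_closedBall.mp hx).trans hr)
  -- continuity
  have hDVc : ContinuousOn (fderiv ℝ V) U := hV.continuousOn_fderiv_of_isOpen hU le_rfl
  have hVc : ContinuousOn V U := hV.continuousOn
  let φ : E2 → ℝ := fun x => J h (V x)
  have hφc : ContinuousOn φ K₀ := (J_continuous h).comp_continuousOn (hVc.mono hK₀U)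
  -- bounds
  obtain ⟨M₀, hM₀⟩ := hK₀.exists_bound_of_continuousOn (hDVc.mono hK₀U)
  obtain ⟨M, hMdef⟩ : ∃ M : ℝ, M = max M₀ 0 := ⟨_, rfl⟩
  have hM0 : 0 ≤ M := by rw [hMdef]; exact le_max_right _ _
  have hM : ∀ x ∈ K₀, ‖fderiv ℝ V x‖ ≤ M := fun x hx => by
    rw [hMdef]; exact (hM₀ x hx).trans (le_max_left _ _)
  obtain ⟨R₀, hR₀⟩ := hK₀.exists_bound_of_continuousOn (hVc.mono hK₀U)
  -- the lower bound `c₀`
  have hFc : ContinuousOn (fun p => 1 + L ^ 2 * LinearMap.det (fderiv ℝ V p).toLinearMap) D :=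
    continuousOn_const.add (continuousOn_const.mul (continuousOn_det D _ (hDVc.mono hDU)))
  obtain ⟨p₀, hp₀, hmin⟩ := hD.exists_isMinOn hne hFc
  obtain ⟨c₀, hc₀def⟩ : ∃ c₀ : ℝ, c₀ = 1 + L ^ 2 * LinearMap.det (fderiv ℝ V p₀).toLinearMap := ⟨_, rfl⟩
  have hFpos : ∀ p ∈ D, 0 < 1 + L ^ 2 * LinearMap.det (fderiv ℝ V p).toLinearMap := by
    intro p hp
    have h1 := (hdet p hp).1
    have hL2 : 0 < L ^ 2 := by positivity
    have h2 : L ^ 2 * (-(L ^ 2)⁻¹) = -1 := by field_simp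
    have h3 := mul_lt_mul_of_pos_left h1 hL2
    linarith
  have hc₀ : 0 < c₀ := by rw [hc₀def]; exact hFpos p₀ hp₀
  have hcle : ∀ p ∈ D, c₀ ≤ 1 + L ^ 2 * LinearMap.det (fderiv ℝ V p).toLinearMap :=
    fun p hp => by rw [hc₀def]; exact isMinOn_iff.mp hmin p hp
  -- constants
  obtain ⟨ε₂, hε₂def⟩ : ∃ ε₂ : ℝ, ε₂ = min 1 (ε / (8 * (VW + 1))) := ⟨_, rfl⟩
  have hε₂ : 0 < ε₂ := by rw [hε₂def]; exact lt_min one_pos (by positivity)
  have hε₂1 : ε₂ ≤ ε / (8 * (VW + 1)) := by rw [hε₂def]; exact min_le_right _ _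
  obtain ⟨η, hηdef⟩ : ∃ η : ℝ, η = min 1 (ε / (12 * (VW + ε + 1))) := ⟨_, rfl⟩
  have hη : 0 < η := by rw [hηdef]; exact lt_min one_pos (by positivity)
  have hη1 : η ≤ 1 := by rw [hηdef]; exact min_le_left _ _
  have hη2 : η ≤ ε / (12 * (VW + ε + 1)) := by rw [hηdef]; exact min_le_right _ _
  have hLM : 0 ≤ L * M := by positivity
  obtain ⟨C₂, hC₂def⟩ : ∃ C₂ : ℝ, C₂ = 2 * (1 + L * M) / c₀ := ⟨_, rfl⟩
  have hC₂ : 0 ≤ C₂ := by rw [hC₂def]; positivity
  obtain ⟨ω, hωdef⟩ : ∃ ω : ℝ, ω = η * c₀ / (16 * (1 + L * M) * (L + 1)) := ⟨_, rfl⟩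
  have hω : 0 < ω := by rw [hωdef]; positivity
  -- uniform continuity
  have huDV := hK₀.uniformContinuousOn_of_continuous (hDVc.mono hK₀U)
  rw [Metric.uniformContinuousOn_iff] at huDV
  obtain ⟨ρ₁, hρ₁, hρ₁'⟩ := huDV ω hω
  have huφ := hK₀.uniformContinuousOn_of_continuous hφc
  rw [Metric.uniformContinuousOn_iff] at huφ
  obtain ⟨ρ₂, hρ₂, hρ₂'⟩ := huφ ε₂ hε₂
  have hBcomp : IsCompact (Metric.closedBall (0 : E2) (R₀ + 1)) := isCompact_closedBall _ _
  have huJ := hBcomp.uniformContinuousOn_of_continuous (J_continuous h).continuousOn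
  rw [Metric.uniformContinuousOn_iff] at huJ
  obtain ⟨σ₀, hσ₀, hσ₀'⟩ := huJ ε₂ hε₂
  obtain ⟨σ, hσdef⟩ : ∃ σ : ℝ, σ = min σ₀ 1 := ⟨_, rfl⟩
  have hσ : 0 < σ := by rw [hσdef]; exact lt_min hσ₀ one_pos
  have hσ1 : σ ≤ 1 := by rw [hσdef]; exact min_le_right _ _
  have hσ2 : σ ≤ σ₀ := by rw [hσdef]; exact min_le_left _ _
  -- the scale of the cells
  obtain ⟨ρ, hρdef⟩ : ∃ ρ : ℝ, ρ = min (r₀ / 4) (min (ρ₁ / 4) (min (ρ₂ / 4) (σ / (8 * (M + 1))))) := ⟨_, rfl⟩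
  have hρ : 0 < ρ := by
    rw [hρdef]
    refine lt_min (by positivity) (lt_min (by positivity) (lt_min (by positivity) (by positivity)))
  have hρ1 : ρ ≤ r₀ / 4 := by rw [hρdef]; exact min_le_left _ _
  have hρ2 : ρ ≤ ρ₁ / 4 := by rw [hρdef]; exact (min_le_right _ _).trans (min_le_left _ _)
  have hρ3 : ρ ≤ ρ₂ / 4 := by
    rw [hρdef]; exact (min_le_right _ _).trans ((min_le_right _ _).trans (min_le_left _ _))
  have hρ4 : ρ ≤ σ / (8 * (M + 1)) := by
    rw [hρdef]; exact (min_le_right _ _).trans ((min_le_right _ _).trans (min_le_right _ _))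
  have hρ4' : M * (4 * ρ) ≤ σ / 2 := by
    have h1 : ρ * (8 * (M + 1)) ≤ σ := by rwa [le_div_iff₀ (by positivity)] at hρ4
    nlinarith
  -- the scale of the squares
  obtain ⟨δ, hδdef⟩ : ∃ δ : ℝ, δ = η * ρ / (16 * (C₂ + 1)) := ⟨_, rfl⟩
  have hδ : 0 < δ := by rw [hδdef]; positivity
  have hδeq : δ * (16 * (C₂ + 1)) = η * ρ := by
    rw [hδdef]; field_simp
  have hCδ : 0 ≤ C₂ * δ := mul_nonneg hC₂ hδ.le
  have hδ1 : C₂ * δ ≤ η * ρ / 16 := by
    have h1 : δ * (16 * (C₂ + 1)) = 16 * (C₂ * δ) + 16 * δ := by ring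
    linarith
  have hδ2 : δ ≤ η * ρ / 16 := by
    have h1 : δ * (16 * (C₂ + 1)) = 16 * (C₂ * δ) + 16 * δ := by ring
    linarith
  obtain ⟨μ, hμdef⟩ : ∃ μ : ℝ, μ = η * ρ / 4 + C₂ * δ := ⟨_, rfl⟩
  have hμ0 : 0 ≤ μ := by rw [hμdef]; positivity
  have hηρ : η * ρ ≤ ρ := by
    have := mul_le_mul_of_nonneg_right hη1 hρ.le
    linarith
  have hμρ : μ ≤ ρ := by
    have : η * ρ / 4 + η * ρ / 16 ≤ ρ := by linarith
    simp only [hμdef]; linarith
  have hℓ : ρ + 2 * μ + 4 * δ ≤ (1 + η) * ρ := by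
    simp only [hμdef]; linarith
  have hmargin : 2 * (1 + L * M) * (L * (ω * (2 * ρ)) + δ) / c₀ ≤ μ := by
    have h1 : 2 * (1 + L * M) * (L * (ω * (2 * ρ)) + δ) / c₀ =
        (L / (L + 1)) * (η * ρ / 4) + C₂ * δ := by
      simp only [hωdef, hC₂def]; field_simp; ring
    rw [h1]
    have h2 : L / (L + 1) ≤ 1 := by rw [div_le_one (by positivity)]; linarith
    have h3 : (L / (L + 1)) * (η * ρ / 4) ≤ 1 * (η * ρ / 4) :=
      mul_le_mul_of_nonneg_right h2 (by positivity)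
    simp only [hμdef]; linarith
  -- the cells
  let K : Finset (ℤ × ℤ) := (finite_cells ρ hρ D hD.isBounded).toFinset
  have hKmem : ∀ k, k ∈ K ↔ (cell ρ k ∩ D).Nonempty := by
    intro k; simp [K]
  have hex : ∀ k ∈ K, ∃ p, p ∈ D ∧ p ∈ cell ρ k := by
    intro k hk
    obtain ⟨p, hp1, hp2⟩ := (hKmem k).mp hk
    exact ⟨p, hp2, hp1⟩
  choose! pk hpk using hex
  have hKK₀ : ∀ k ∈ K, cell ρ k ⊆ K₀ := by
    intro k hk x hx
    refine hclosedBall (pk k) (hpk k hk).1 r₀ le_rfl ?_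
    rw [Metric.mem_closedBall, dist_eq_norm]
    have := cell_dist ρ hρ k x (pk k) hx (hpk k hk).2
    linarith
  have hDK : ∀ x ∈ D, ∃ k ∈ K, x ∈ cell ρ k := by
    intro x hx
    refine ⟨(⌊x 0 / ρ⌋, ⌊x 1 / ρ⌋), (hKmem _).mpr ⟨x, mem_cell_floor ρ hρ x, hx⟩, mem_cell_floor ρ hρ x⟩
  -- the frames
  haveI : Nonempty (OrthonormalBasis (Fin 2) ℝ E2) := ⟨EuclideanSpace.basisFun (Fin 2) ℝ⟩
  have hfr : ∀ k ∈ K, ∃ (b : OrthonormalBasis (Fin 2) ℝ E2) (α β : ℝ),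
      fderiv ℝ V (pk k) (b 0) = β • b 1 ∧ fderiv ℝ V (pk k) (b 1) = α • b 0 ∧
        α * β = - LinearMap.det (fderiv ℝ V (pk k)).toLinearMap := by
    intro k hk
    exact exists_frame _ (htr _ (hpk k hk).1)
  choose! b α β hfr using hfr
  -- the lattice points in each cell
  let T : ℤ × ℤ → Set E2 := fun k => Box (!₂[(k.1 : ℝ) * ρ - μ, (k.2 : ℝ) * ρ - μ]) (ρ + 2 * μ)
  let Γ : ℤ × ℤ → Finset (ℤ × ℤ) := fun k => (finite_grid_box (b k) (pk k) δ hδ
    (!₂[(k.1 : ℝ) * ρ - μ, (k.2 : ℝ) * ρ - μ]) (ρ + 2 * μ)).toFinset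
  have hΓmem : ∀ k z, z ∈ Γ k ↔ grid (b k) (pk k) δ z ∈ T k := by
    intro k z; simp [Γ, T]
  -- the index set
  let S : Finset (Σ _ : ℤ × ℤ, ℤ × ℤ) := K.sigma Γ
  let qf : (Σ _ : ℤ × ℤ, ℤ × ℤ) → E2 := fun w => grid (b w.1) (pk w.1) δ w.2
  let cf : (Σ _ : ℤ × ℤ, ℤ × ℤ) → E2 := fun w => qf w - (δ / 2) • b w.1 0 - (δ / 2) • b w.1 1
  let af : (Σ _ : ℤ × ℤ, ℤ × ℤ) → E2 := fun w => δ • b w.1 0
  let bf : (Σ _ : ℤ × ℤ, ℤ × ℤ) → E2 := fun w => δ • b w.1 1
  let gf : (Σ _ : ℤ × ℤ, ℤ × ℤ) → E2 := fun w =>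
    V (pk w.1) + fderiv ℝ V (pk w.1) (qf w - pk w.1)
  refine ⟨↥S, inferInstance, fun i => cf i.1, fun i => af i.1, fun i => bf i.1, fun i => gf i.1,
    ?_, ?_, ?_⟩
  · -- squares
    intro i
    have hb0 := (b i.1.1).norm_eq_one 0
    have hb1 := (b i.1.1).norm_eq_one 1
    refine ⟨?_, ?_, ?_⟩
    · simp only [af]
      intro h0
      have := congrArg norm h0
      rw [norm_smul, hb0, mul_one, Real.norm_eq_abs, abs_of_pos hδ, norm_zero] at this
      exact hδ.ne' this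
    · simp only [af, bf, norm_smul, hb0, hb1]
    · simp only [af, bf, inner_smul_left, inner_smul_right, inner_b01]
      simp
  · -- covering
    rintro ⟨s, x⟩ ⟨p', hp', hs, hx⟩
    simp only at hs hx
    obtain ⟨k, hk, hp'k⟩ := hDK p' hp'
    obtain ⟨hpD, hpcell⟩ := hpk k hk
    obtain ⟨hf0, hf1, hf2⟩ := hfr k hk
    set p := pk k with hpdef
    set A := fderiv ℝ V p with hAdef
    have hppn : ‖p' - p‖ ≤ 2 * ρ := cell_dist ρ hρ k p' p hp'k hpcell
    have hball : Metric.closedBall p (2 * ρ) ⊆ K₀ := hclosedBall p hpD _ (by linarith)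
    have hmvt : ‖V p' - V p - A (p' - p)‖ ≤ ω * ‖p' - p‖ := by
      apply mvt_bound V U hU hV p p' (2 * ρ) ω (hball.trans hK₀U) _ _ (by positivity)
      · intro ξ hξ
        have h1 : dist ξ p < ρ₁ := by
          have := Metric.mem_closedBall.mp hξ
          linarith
        have := hρ₁' ξ (hball hξ) p (hDK₀ hpD) h1
        rw [dist_eq_norm] at this
        exact this.le
      · rw [Metric.mem_closedBall, dist_eq_norm]; exact hppn
    obtain ⟨z, ξ, hξ, ζ, hζ, heq, hnear⟩ := cover_step A (b k) (α k) (β k) hf0 hf1 hf2 (hdet p hpD).2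
      L M c₀ ω ρ δ hL (hM p (hDK₀ hpD)) hc₀ (hcle p hpD) hω.le hδ p (V p) p' (V p') s hs hmvt hppn
    have hnear' := hnear.trans hmargin
    have hzΓ : z ∈ Γ k := (hΓmem k z).mpr (mem_thick ρ μ k p' _ hp'k hnear')
    have hzS : (⟨k, z⟩ : Σ _ : ℤ × ℤ, ℤ × ℤ) ∈ S := Finset.mem_sigma.mpr ⟨hk, hzΓ⟩
    refine Set.mem_iUnion.mpr ⟨⟨⟨k, z⟩, hzS⟩, ξ + 1 / 2, ⟨by linarith [hξ.1], by linarith [hξ.2]⟩,
      ζ + 1 / 2, ⟨by linarith [hζ.1], by linarith [hζ.2]⟩, ?_⟩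
    simp only [cf, af, bf, gf, qf]
    rw [hx, heq]
    simp only [smul_smul]
    have e1 : (ξ + 1 / 2) * δ = δ * ξ + δ / 2 := by ring
    have e2 : (ζ + 1 / 2) * δ = δ * ζ + δ / 2 := by ring
    rw [e1, e2, add_smul, add_smul]
    abel
  · -- the area estimate
    have hsum1 : ∑ i : ↥S, ‖af i.1‖ ^ 2 / Real.sqrt (1 + (gf i.1 0) ^ 2 + h ^ 2 * (gf i.1 1) ^ 2) =
        ∑ k ∈ K, ∑ z ∈ Γ k, δ ^ 2 * J h (gf ⟨k, z⟩) := by
      have h1 := Finset.sum_coe_sort S (fun w =>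
        ‖af w‖ ^ 2 / Real.sqrt (1 + (gf w 0) ^ 2 + h ^ 2 * (gf w 1) ^ 2))
      rw [h1, Finset.sum_sigma]
      refine Finset.sum_congr rfl (fun k _ => Finset.sum_congr rfl (fun z _ => ?_))
      simp only [af, J, norm_smul, (b k).norm_eq_one 0, mul_one, Real.norm_eq_abs, abs_of_pos hδ]
      ring
    rw [hsum1]
    -- estimate of `J` at the velocities
    have hJ : ∀ k ∈ K, ∀ z ∈ Γ k, J h (gf ⟨k, z⟩) ≤ φ (pk k) + ε₂ := by
      intro k hk z hz
      obtain ⟨hpD, hpcell⟩ := hpk k hk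
      have hq := (hΓmem k z).mp hz
      have hqp := thick_dist ρ μ hμρ hρ k (pk k) _ hpcell hq
      have hA := (fderiv ℝ V (pk k)).le_opNorm (grid (b k) (pk k) δ z - pk k)
      have hAn : ‖fderiv ℝ V (pk k) (grid (b k) (pk k) δ z - pk k)‖ ≤ σ / 2 := by
        refine hA.trans ?_
        refine (mul_le_mul (hM _ (hDK₀ hpD)) hqp (norm_nonneg _) hM0).trans hρ4'
      have hVp : ‖V (pk k)‖ ≤ R₀ := hR₀ _ (hDK₀ hpD)
      have hg1 : V (pk k) ∈ Metric.closedBall (0 : E2) (R₀ + 1) := by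
        rw [mem_closedBall_zero_iff]; linarith
      have hg2 : gf ⟨k, z⟩ ∈ Metric.closedBall (0 : E2) (R₀ + 1) := by
        rw [mem_closedBall_zero_iff]
        simp only [gf, qf]
        refine (norm_add_le _ _).trans ?_
        linarith
      have hd : dist (gf ⟨k, z⟩) (V (pk k)) < σ₀ := by
        rw [dist_eq_norm]
        simp only [gf, qf, add_sub_cancel_left]
        linarith
      have := hσ₀' _ hg2 _ hg1 hd
      rw [Real.dist_eq] at this
      have h5 := (abs_lt.mp this).2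
      simp only [φ]
      linarith
    -- the estimate in a cell
    have hcellest : ∀ k ∈ K, ∑ z ∈ Γ k, δ ^ 2 * J h (gf ⟨k, z⟩) ≤
        (1 + η) ^ 2 * ((∫ x in cell ρ k, φ x) + 2 * ε₂ * ρ ^ 2) := by
      intro k hk
      obtain ⟨hpD, hpcell⟩ := hpk k hk
      have hφp0 : 0 ≤ φ (pk k) := J_nonneg _ _
      have h1 : ∑ z ∈ Γ k, δ ^ 2 * J h (gf ⟨k, z⟩) ≤ ((Γ k).card : ℝ) * δ ^ 2 * (φ (pk k) + ε₂) := by
        calc ∑ z ∈ Γ k, δ ^ 2 * J h (gf ⟨k, z⟩)
            ≤ ∑ _z ∈ Γ k, δ ^ 2 * (φ (pk k) + ε₂) := by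
              refine Finset.sum_le_sum (fun z hz => ?_)
              exact mul_le_mul_of_nonneg_left (hJ k hk z hz) (by positivity)
          _ = _ := by rw [Finset.sum_const, nsmul_eq_mul]; ring
      have h2 : ((Γ k).card : ℝ) * δ ^ 2 ≤ ((1 + η) * ρ) ^ 2 := by
        refine (count_step (b k) (pk k) δ ρ μ hδ hρ hμ0 k (Γ k)
          (fun z hz => (hΓmem k z).mp hz)).trans ?_
        exact pow_le_pow_left₀ (by positivity) hℓ 2
      have h3 : ρ ^ 2 * (φ (pk k) - ε₂) ≤ ∫ x in cell ρ k, φ x := by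
        have hvol : (volume (cell ρ k)).toReal = ρ ^ 2 := by
          rw [cell_volume ρ hρ k, ENNReal.toReal_ofReal (by positivity)]
        have hfin : volume (cell ρ k) ≠ ⊤ := by
          rw [cell_volume ρ hρ k]; exact ENNReal.ofReal_ne_top
        have hI : IntegrableOn φ (cell ρ k) :=
          (hφc.integrableOn_compact hK₀).mono_set (hKK₀ k hk)
        have := setIntegral_mono_on (s := cell ρ k) (f := fun _ => φ (pk k) - ε₂) (g := φ)
          (integrableOn_const hfin) hI (cell_measurable ρ k) (by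
            intro x hx
            have hxK := hKK₀ k hk hx
            have hd : dist x (pk k) < ρ₂ := by
              rw [dist_eq_norm]
              have := cell_dist ρ hρ k x (pk k) hx hpcell
              linarith
            have := hρ₂' x hxK (pk k) (hDK₀ hpD) hd
            rw [Real.dist_eq] at this
            have h5 := (abs_lt.mp this).1
            linarith)
        rw [setIntegral_const] at this
        simp only [Measure.real, hvol, smul_eq_mul] at this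
        exact this
      have h4 : (1 + η) ^ 2 * 0 ≤ (1 + η) ^ 2 * 1 := by
        apply mul_le_mul_of_nonneg_left <;> norm_num; positivity
      calc ∑ z ∈ Γ k, δ ^ 2 * J h (gf ⟨k, z⟩)
          ≤ ((Γ k).card : ℝ) * δ ^ 2 * (φ (pk k) + ε₂) := h1
        _ ≤ ((1 + η) * ρ) ^ 2 * (φ (pk k) + ε₂) :=
            mul_le_mul_of_nonneg_right h2 (by positivity)
        _ = (1 + η) ^ 2 * (ρ ^ 2 * (φ (pk k) - ε₂) + 2 * ε₂ * ρ ^ 2) := by ring
        _ ≤ _ := by
            apply mul_le_mul_of_nonneg_left _ (by positivity)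
            linarith
    -- sum over the cells
    obtain ⟨hS1, hS2⟩ := sum_integral D W hD K₀ hK₀ φ hφc (fun x => J_le_one h _) (fun x => J_nonneg h _)
      hthick hWo.measurableSet ρ ε₀ hρ K hKK₀ hDK hdiff hWfin
    rw [← hVW] at hS2
    have htotal : ∑ k ∈ K, ∑ z ∈ Γ k, δ ^ 2 * J h (gf ⟨k, z⟩) ≤
        (1 + η) ^ 2 * ((∫ x in D, φ x) + ε₀ + 2 * ε₂ * VW) := by
      calc ∑ k ∈ K, ∑ z ∈ Γ k, δ ^ 2 * J h (gf ⟨k, z⟩)
          ≤ ∑ k ∈ K, (1 + η) ^ 2 * ((∫ x in cell ρ k, φ x) + 2 * ε₂ * ρ ^ 2) :=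
            Finset.sum_le_sum hcellest
        _ = (1 + η) ^ 2 * ((∑ k ∈ K, ∫ x in cell ρ k, φ x) + ((K.card : ℝ) * ρ ^ 2) * (2 * ε₂)) := by
            rw [← Finset.mul_sum, Finset.sum_add_distrib, Finset.sum_const, nsmul_eq_mul]; ring
        _ ≤ _ := by
            apply mul_le_mul_of_nonneg_left _ (by positivity)
            have : ((K.card : ℝ) * ρ ^ 2) * (2 * ε₂) ≤ VW * (2 * ε₂) :=
              mul_le_mul_of_nonneg_right hS2 (by positivity)
            linarith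
    -- the numerology
    obtain ⟨I, hIdef⟩ : ∃ I : ℝ, I = ∫ x in D, φ x := ⟨_, rfl⟩
    rw [← hIdef] at htotal
    have hgoal : (∫ p in D, J h (V p)) = I := by rw [hIdef]
    rw [hgoal]
    have hI0 : 0 ≤ I := by
      rw [hIdef]; exact setIntegral_nonneg hD.measurableSet (fun x _ => J_nonneg h _)
    have hIW : I ≤ VW := by
      have hfin : volume D ≠ ⊤ := hvolD
      have := setIntegral_mono_on (s := D) (f := φ) (g := fun _ => (1 : ℝ))
        ((hφc.integrableOn_compact hK₀).mono_set hDK₀) (integrableOn_const hfin)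
        hD.measurableSet (fun x _ => J_le_one h _)
      have h2 : (∫ _x in D, (1 : ℝ)) = (volume D).toReal := by simp [Measure.real]
      rw [h2] at this
      rw [hIdef, hVW]
      exact this.trans (ENNReal.toReal_mono hWfin (measure_mono hDW))
    have hε₂V : 2 * ε₂ * VW ≤ ε / 4 := by
      have h1 : ε₂ * (8 * (VW + 1)) ≤ ε := by rwa [le_div_iff₀ (by positivity)] at hε₂1
      nlinarith
    have hη12 : η * (12 * (VW + ε + 1)) ≤ ε := by rwa [le_div_iff₀ (by positivity)] at hη2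
    obtain ⟨X, hX⟩ : ∃ X : ℝ, X = I + ε₀ + 2 * ε₂ * VW := ⟨_, rfl⟩
    rw [← hX] at htotal
    have hX0 : 0 ≤ X := by
      have : 0 ≤ 2 * ε₂ * VW := by positivity
      rw [hX]; linarith
    have hXup : X ≤ VW + ε / 2 := by simp only [hX, hε₀def]; linarith
    have hfinal : (1 + η) ^ 2 * X ≤ I + ε := by
      have h1 : (1 + η) ^ 2 ≤ 1 + 3 * η := by nlinarith
      have h2 : (1 + η) ^ 2 * X ≤ (1 + 3 * η) * X := mul_le_mul_of_nonneg_right h1 hX0
      have h3 : 3 * η * X ≤ ε / 4 := by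
        have : η * X ≤ η * (VW + ε + 1) := mul_le_mul_of_nonneg_left (by linarith) hη.le
        nlinarith
      have h4 : X ≤ I + ε / 2 := by simp only [hX, hε₀def]; linarith
      nlinarith
    exact htotal.trans hfinal

end Crest.Agent.S0326Lib
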