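import Crest.Agent.S0326Lib.Local

set_option autoImplicit false

open scoped InnerProductSpace ENNReal
open MeasureTheory

namespace Crest.Agent.S0326Lib

lemma abs_coord_le_norm (x : E2) (i : Fin 2) : |x i| ≤ ‖x‖ := by
  have := PiLp.norm_apply_le x i
  simpa using this

lemma norm_le_coord_sum (x : E2) : ‖x‖ ≤ |x 0| + |x 1| := by
  conv_lhs => rw [expand x]
  refine (norm_add_le _ _).trans ?_
  simp [norm_smul, E0, E1]

/-- half open axis parallel square cells -/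
def cell (ρ : ℝ) (k : ℤ × ℤ) : Set E2 :=
  {y | y 0 ∈ Set.Ico ((k.1 : ℝ) * ρ) (k.1 * ρ + ρ) ∧ y 1 ∈ Set.Ico ((k.2 : ℝ) * ρ) (k.2 * ρ + ρ)}

lemma cell_measurable (ρ : ℝ) (k : ℤ × ℤ) : MeasurableSet (cell ρ k) :=
  ((measurable_coord 0) measurableSet_Ico).inter ((measurable_coord 1) measurableSet_Ico)

lemma cell_volume (ρ : ℝ) (hρ : 0 < ρ) (k : ℤ × ℤ) : volume (cell ρ k) = ENNReal.ofReal (ρ ^ 2) := by
  unfold cell
  rw [volume_rect_Ico]
  have h1 : (k.1 : ℝ) * ρ + ρ - k.1 * ρ = ρ := by ring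
  have h2 : (k.2 : ℝ) * ρ + ρ - k.2 * ρ = ρ := by ring
  rw [h1, h2, ← ENNReal.ofReal_mul hρ.le]; congr 1; ring

lemma cell_disjoint (ρ : ℝ) (hρ : 0 < ρ) (k k' : ℤ × ℤ) (hne : k ≠ k') :
    Disjoint (cell ρ k) (cell ρ k') := by
  rw [Set.disjoint_left]
  intro x hx hx'
  obtain ⟨⟨h1, h2⟩, ⟨h3, h4⟩⟩ := hx
  obtain ⟨⟨h1', h2'⟩, ⟨h3', h4'⟩⟩ := hx'
  apply hne
  have key : ∀ (u v : ℤ) (t : ℝ), (u : ℝ) * ρ ≤ t → t < u * ρ + ρ → (v : ℝ) * ρ ≤ t → t < v * ρ + ρ →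
      u = v := by
    intro u v t a1 a2 a3 a4
    have h5 : (u : ℝ) < v + 1 := by
      have : (u : ℝ) * ρ < (v + 1) * ρ := by nlinarith
      exact lt_of_mul_lt_mul_right this hρ.le
    have h6 : (v : ℝ) < u + 1 := by
      have : (v : ℝ) * ρ < (u + 1) * ρ := by nlinarith
      exact lt_of_mul_lt_mul_right this hρ.le
    have h7 : u < v + 1 := by exact_mod_cast h5
    have h8 : v < u + 1 := by exact_mod_cast h6
    omega
  exact Prod.ext (key _ _ _ h1 h2 h1' h2') (key _ _ _ h3 h4 h3' h4')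

lemma mem_cell_floor (ρ : ℝ) (hρ : 0 < ρ) (x : E2) : x ∈ cell ρ (⌊x 0 / ρ⌋, ⌊x 1 / ρ⌋) := by
  have key : ∀ t : ℝ, t ∈ Set.Ico ((⌊t / ρ⌋ : ℝ) * ρ) (⌊t / ρ⌋ * ρ + ρ) := by
    intro t
    have h1 := Int.floor_le (t / ρ)
    have h2 := Int.lt_floor_add_one (t / ρ)
    constructor
    · rwa [le_div_iff₀ hρ] at h1
    · rw [div_lt_iff₀ hρ] at h2; linarith
  exact ⟨key _, key _⟩

lemma cell_dist (ρ : ℝ) (hρ : 0 < ρ) (k : ℤ × ℤ) (x y : E2) (hx : x ∈ cell ρ k) (hy : y ∈ cell ρ k) :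
    ‖x - y‖ ≤ 2 * ρ := by
  obtain ⟨⟨h1, h2⟩, ⟨h3, h4⟩⟩ := hx
  obtain ⟨⟨h1', h2'⟩, ⟨h3', h4'⟩⟩ := hy
  refine (norm_le_coord_sum _).trans ?_
  have e0 : |(x - y) 0| ≤ ρ := by
    rw [abs_le]; simp only [PiLp.sub_apply]; constructor <;> linarith
  have e1 : |(x - y) 1| ≤ ρ := by
    rw [abs_le]; simp only [PiLp.sub_apply]; constructor <;> linarith
  linarith

/-- Finitely many cells meet a bounded set. -/
lemma finite_cells (ρ : ℝ) (hρ : 0 < ρ) (D : Set E2) (hD : Bornology.IsBounded D) :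
    {k : ℤ × ℤ | (cell ρ k ∩ D).Nonempty}.Finite := by
  obtain ⟨R, hR⟩ := hD.exists_norm_le
  let N : ℤ := ⌈|R| / ρ⌉ + 1
  refine (Set.finite_Icc ((-N, -N) : ℤ × ℤ) (N, N)).subset ?_
  rintro k ⟨x, hx, hxD⟩
  obtain ⟨⟨h1, h2⟩, ⟨h3, h4⟩⟩ := hx
  have hbd : ∀ i, |x i| ≤ |R| := fun i => (abs_coord_le_norm x i).trans ((hR x hxD).trans (le_abs_self _))
  have hceil := Int.le_ceil (|R| / ρ)
  have hR' : |R| = |R| / ρ * ρ := by field_simp
  have key : ∀ (u : ℤ) (t : ℝ), (u : ℝ) * ρ ≤ t → t < u * ρ + ρ → |t| ≤ |R| → -N ≤ u ∧ u ≤ N := by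
    intro u t a1 a2 a3
    rw [abs_le] at a3
    constructor
    · have : (-(N : ℝ)) ≤ u := by
        have h5 : (-(N : ℝ) - 1 + 1) * ρ ≤ (u + 1) * ρ - ρ := by
          simp only [N]; push_cast
          nlinarith
        have h6 : -(N : ℝ) * ρ ≤ u * ρ := by nlinarith
        exact le_of_mul_le_mul_right h6 hρ
      exact_mod_cast this
    · have : (u : ℝ) ≤ N := by
        have h6 : (u : ℝ) * ρ ≤ N * ρ := by
          simp only [N]; push_cast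
          nlinarith
        exact le_of_mul_le_mul_right h6 hρ
      exact_mod_cast this
  obtain ⟨a, b⟩ := key _ _ h1 h2 (hbd 0)
  obtain ⟨c, d⟩ := key _ _ h3 h4 (hbd 1)
  exact ⟨Prod.mk_le_mk.mpr ⟨a, c⟩, Prod.mk_le_mk.mpr ⟨b, d⟩⟩

/-- The mean value bound for a `C¹` map near a point. -/
lemma mvt_bound (V : E2 → E2) (U : Set E2) (hU : IsOpen U) (hV : ContDiffOn ℝ 1 V U)
    (p p' : E2) (r ω : ℝ) (hball : Metric.closedBall p r ⊆ U)
    (hω : ∀ ξ ∈ Metric.closedBall p r, ‖fderiv ℝ V ξ - fderiv ℝ V p‖ ≤ ω)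
    (hp' : p' ∈ Metric.closedBall p r) (hr : 0 ≤ r) :
    ‖V p' - V p - fderiv ℝ V p (p' - p)‖ ≤ ω * ‖p' - p‖ := by
  let A := fderiv ℝ V p
  let g : E2 → E2 := fun ξ => V ξ - A ξ
  have hdiff : ∀ ξ ∈ Metric.closedBall p r, HasFDerivAt g (fderiv ℝ V ξ - A) ξ := by
    intro ξ hξ
    have h1 : DifferentiableAt ℝ V ξ :=
      (hV.differentiableOn (by norm_num)).differentiableAt (hU.mem_nhds (hball hξ))
    exact h1.hasFDerivAt.sub A.hasFDerivAt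
  have hconv : Convex ℝ (Metric.closedBall p r) := convex_closedBall p r
  have hp : p ∈ Metric.closedBall p r := Metric.mem_closedBall_self hr
  have := hconv.norm_image_sub_le_of_norm_hasFDerivWithin_le
    (f := g) (f' := fun ξ => fderiv ℝ V ξ - A) (C := ω)
    (fun ξ hξ => (hdiff ξ hξ).hasFDerivWithinAt) (fun ξ hξ => hω ξ hξ) hp hp'
  have heq : g p' - g p = V p' - V p - A (p' - p) := by
    simp only [g, map_sub]; abel
  rw [heq] at this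
  exact this

end Crest.Agent.S0326Lib
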