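import Crest.Agent.S0326Lib.Main

set_option autoImplicit false

open scoped InnerProductSpace ENNReal
open MeasureTheory

namespace Crest.Agent.S0326Lib

/-- The covering step in a cell. -/
theorem cover_step (A : E2 →L[ℝ] E2) (b : OrthonormalBasis (Fin 2) ℝ E2) (α β : ℝ)
    (hA0 : A (b 0) = β • b 1) (hA1 : A (b 1) = α • b 0)
    (hab : α * β = - LinearMap.det A.toLinearMap)
    (hdet0 : LinearMap.det A.toLinearMap ≤ 0)
    (L M c₀ ω ρ δ : ℝ) (hL : 0 < L) (hM : ‖A‖ ≤ M) (hc₀ : 0 < c₀)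
    (hc : c₀ ≤ 1 + L ^ 2 * LinearMap.det A.toLinearMap) (hω : 0 ≤ ω) (hδ : 0 < δ)
    (p v p' V' : E2) (s : ℝ) (hs : |s| ≤ L)
    (hmvt : ‖V' - v - A (p' - p)‖ ≤ ω * ‖p' - p‖) (hpp : ‖p' - p‖ ≤ 2 * ρ) :
    ∃ z : ℤ × ℤ, ∃ ξ ∈ Set.Icc (-(1 / 2) : ℝ) (1 / 2), ∃ ζ ∈ Set.Icc (-(1 / 2) : ℝ) (1 / 2),
      p' + s • V' = grid b p δ z + s • (v + A (grid b p δ z - p)) + (δ * ξ) • b 0 + (δ * ζ) • b 1 ∧
      ‖grid b p δ z - p'‖ ≤ 2 * (1 + L * M) * (L * (ω * (2 * ρ)) + δ) / c₀ := by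
  have hs2 : s ^ 2 ≤ L ^ 2 := by
    rw [sq_le_sq, abs_of_pos hL]; exact hs
  have hab0 : 0 ≤ α * β := by rw [hab]; linarith
  have hsab : s ^ 2 * (α * β) ≤ L ^ 2 * (α * β) := mul_le_mul_of_nonneg_right hs2 hab0
  have hc' : c₀ ≤ 1 - s ^ 2 * (α * β) := by
    have : L ^ 2 * LinearMap.det A.toLinearMap = - (L ^ 2 * (α * β)) := by rw [hab]; ring
    rw [this] at hc
    linarith
  obtain ⟨z, ξ, hξ, ζ, hζ, hx⟩ := local_cover A b α β hA0 hA1 s hab0 (by linarith) δ hδ p v (p' + s • V')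
  refine ⟨z, ξ, hξ, ζ, hζ, hx, ?_⟩
  -- bounds on `α`, `β`
  have hM0 : 0 ≤ M := le_trans (norm_nonneg _) hM
  have hαn : |α| ≤ M := by
    have h1 : ‖A (b 1)‖ ≤ ‖A‖ * ‖b 1‖ := A.le_opNorm _
    rw [hA1, norm_smul, b.norm_eq_one, b.norm_eq_one, mul_one, mul_one] at h1
    exact h1.trans hM
  have hβn : |β| ≤ M := by
    have h1 : ‖A (b 0)‖ ≤ ‖A‖ * ‖b 0‖ := A.le_opNorm _
    rw [hA0, norm_smul, b.norm_eq_one, b.norm_eq_one, mul_one, mul_one] at h1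
    exact h1.trans hM
  have hsα : |s * α| ≤ L * M := by
    rw [abs_mul]; exact mul_le_mul hs hαn (abs_nonneg _) hL.le
  have hsβ : |s * β| ≤ L * M := by
    rw [abs_mul]; exact mul_le_mul hs hβn (abs_nonneg _) hL.le
  have hloc := localize A b α β hA0 hA1 s (L * M) c₀ hsα hsβ hc₀ hc' δ hδ p v (grid b p δ z) p' V'
    ξ ζ hξ hζ hx
  refine hloc.trans ?_
  have hr : ‖s • (V' - v - A (p' - p))‖ ≤ L * (ω * (2 * ρ)) := by
    rw [norm_smul, Real.norm_eq_abs]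
    refine mul_le_mul hs (hmvt.trans ?_) (norm_nonneg _) hL.le
    exact mul_le_mul_of_nonneg_left hpp hω
  have h1L : 0 ≤ 2 * (1 + L * M) := by positivity
  apply div_le_div_of_nonneg_right _ hc₀.le
  exact mul_le_mul_of_nonneg_left (by linarith) h1L

/-- Counting in a thick cell. -/
theorem count_step (b : OrthonormalBasis (Fin 2) ℝ E2) (p : E2) (δ ρ μ : ℝ) (hδ : 0 < δ) (hρ : 0 < ρ)
    (hμ : 0 ≤ μ) (k : ℤ × ℤ) (Γ : Finset (ℤ × ℤ))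
    (hΓ : ∀ z ∈ Γ, grid b p δ z ∈ Box (!₂[(k.1 : ℝ) * ρ - μ, (k.2 : ℝ) * ρ - μ]) (ρ + 2 * μ)) :
    (Γ.card : ℝ) * δ ^ 2 ≤ (ρ + 2 * μ + 4 * δ) ^ 2 := by
  apply card_mul_le b p (!₂[(k.1 : ℝ) * ρ - μ - 2 * δ, (k.2 : ℝ) * ρ - μ - 2 * δ]) δ _ hδ (by positivity) Γ
  intro z hz ξ hξ ζ hζ
  obtain ⟨⟨h1, h2⟩, ⟨h3, h4⟩⟩ := hΓ z hz
  simp only [PiLp.toLp_apply, Matrix.cons_val_zero, Matrix.cons_val_one] at h1 h2 h3 h4
  set q := grid b p δ z with hq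
  have heq : p + (δ * (z.1 + ξ)) • b 0 + (δ * (z.2 + ζ)) • b 1 = q + ((δ * ξ) • b 0 + (δ * ζ) • b 1) := by
    rw [hq]; simp only [grid, mul_add, add_smul]; abel
  have hsmall : ‖(δ * ξ) • b 0 + (δ * ζ) • b 1‖ ≤ 2 * δ := by
    refine (norm_add_le _ _).trans ?_
    simp only [norm_smul, b.norm_eq_one, mul_one, Real.norm_eq_abs]
    rw [abs_mul, abs_mul, abs_of_pos hδ, abs_of_nonneg hξ.1, abs_of_nonneg hζ.1]
    nlinarith [hξ.2, hζ.2]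
  rw [heq]
  generalize (δ * ξ) • b 0 + (δ * ζ) • b 1 = e at hsmall
  have hc0 := abs_le.mp ((abs_coord_le_norm _ 0).trans hsmall)
  have hc1 := abs_le.mp ((abs_coord_le_norm _ 1).trans hsmall)
  constructor
  · constructor
    · simp only [PiLp.add_apply, PiLp.toLp_apply, Matrix.cons_val_zero]; linarith [hc0.1]
    · simp only [PiLp.add_apply, PiLp.toLp_apply, Matrix.cons_val_zero]; linarith [hc0.2]
  · constructor
    · simp only [PiLp.add_apply, PiLp.toLp_apply, Matrix.cons_val_one, Matrix.cons_val_zero]; linarith [hc1.1]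
    · simp only [PiLp.add_apply, PiLp.toLp_apply, Matrix.cons_val_one, Matrix.cons_val_zero]; linarith [hc1.2]

/-- A point of the thick cell is near a point of the cell. -/
lemma thick_dist (ρ μ : ℝ) (hμ : μ ≤ ρ) (hρ : 0 < ρ) (k : ℤ × ℤ) (p q : E2) (hp : p ∈ cell ρ k)
    (hq : q ∈ Box (!₂[(k.1 : ℝ) * ρ - μ, (k.2 : ℝ) * ρ - μ]) (ρ + 2 * μ)) : ‖q - p‖ ≤ 4 * ρ := by
  obtain ⟨⟨h1, h2⟩, ⟨h3, h4⟩⟩ := hp
  obtain ⟨⟨g1, g2⟩, ⟨g3, g4⟩⟩ := hq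
  simp only [PiLp.toLp_apply, Matrix.cons_val_zero, Matrix.cons_val_one] at g1 g2 g3 g4
  refine (norm_le_coord_sum _).trans ?_
  have e0 : |(q - p) 0| ≤ 2 * ρ := by
    rw [abs_le]; simp only [PiLp.sub_apply]; constructor <;> linarith
  have e1 : |(q - p) 1| ≤ 2 * ρ := by
    rw [abs_le]; simp only [PiLp.sub_apply]; constructor <;> linarith
  linarith

/-- If a point is `μ`-close to a point of the cell it is in the thick cell. -/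
lemma mem_thick (ρ μ : ℝ) (k : ℤ × ℤ) (p q : E2) (hp : p ∈ cell ρ k) (hq : ‖q - p‖ ≤ μ) :
    q ∈ Box (!₂[(k.1 : ℝ) * ρ - μ, (k.2 : ℝ) * ρ - μ]) (ρ + 2 * μ) := by
  obtain ⟨⟨h1, h2⟩, ⟨h3, h4⟩⟩ := hp
  have e0 := abs_le.mp ((abs_coord_le_norm (q - p) 0).trans hq)
  have e1 := abs_le.mp ((abs_coord_le_norm (q - p) 1).trans hq)
  simp only [PiLp.sub_apply] at e0 e1
  refine ⟨⟨?_, ?_⟩, ⟨?_, ?_⟩⟩ <;>
    simp only [PiLp.toLp_apply, Matrix.cons_val_zero, Matrix.cons_val_one] <;> linarith [e0.1, e0.2, e1.1, e1.2]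

end Crest.Agent.S0326Lib
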