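import Crest.Agent.S0326Lib.Frame

set_option autoImplicit false

open scoped InnerProductSpace ENNReal
open MeasureTheory

namespace Crest.Agent.S0326Lib

/-- Volume of an axis-parallel half open rectangle in the plane. -/
lemma volume_rect_Ico (a₀ b₀ a₁ b₁ : ℝ) :
    volume {y : E2 | y 0 ∈ Set.Ico a₀ b₀ ∧ y 1 ∈ Set.Ico a₁ b₁} =
      ENNReal.ofReal (b₀ - a₀) * ENNReal.ofReal (b₁ - a₁) := by
  have hset : {y : E2 | y 0 ∈ Set.Ico a₀ b₀ ∧ y 1 ∈ Set.Ico a₁ b₁} =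
      (fun y : E2 => (WithLp.ofLp y)) ⁻¹' (Set.pi Set.univ ![Set.Ico a₀ b₀, Set.Ico a₁ b₁]) := by
    ext y
    simp [Set.mem_pi, Fin.forall_fin_two]
  rw [hset]
  have hms : MeasurableSet (Set.pi Set.univ ![Set.Ico a₀ b₀, Set.Ico a₁ b₁] : Set (Fin 2 → ℝ)) := by
    apply MeasurableSet.univ_pi
    intro i; fin_cases i <;> simp [measurableSet_Ico]
  rw [(PiLp.volume_preserving_ofLp (Fin 2)).measure_preimage hms.nullMeasurableSet,
    volume_pi_pi]
  simp [Fin.prod_univ_two]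

/-- Volume of an axis-parallel closed rectangle in the plane. -/
lemma volume_rect_Icc (a₀ b₀ a₁ b₁ : ℝ) :
    volume {y : E2 | y 0 ∈ Set.Icc a₀ b₀ ∧ y 1 ∈ Set.Icc a₁ b₁} =
      ENNReal.ofReal (b₀ - a₀) * ENNReal.ofReal (b₁ - a₁) := by
  have hset : {y : E2 | y 0 ∈ Set.Icc a₀ b₀ ∧ y 1 ∈ Set.Icc a₁ b₁} =
      (fun y : E2 => (WithLp.ofLp y)) ⁻¹' (Set.pi Set.univ ![Set.Icc a₀ b₀, Set.Icc a₁ b₁]) := by
    ext y
    simp [Set.mem_pi, Fin.forall_fin_two]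
  rw [hset]
  have hms : MeasurableSet (Set.pi Set.univ ![Set.Icc a₀ b₀, Set.Icc a₁ b₁] : Set (Fin 2 → ℝ)) := by
    apply MeasurableSet.univ_pi
    intro i; fin_cases i <;> simp [measurableSet_Icc]
  rw [(PiLp.volume_preserving_ofLp (Fin 2)).measure_preimage hms.nullMeasurableSet,
    volume_pi_pi]
  simp [Fin.prod_univ_two]

lemma measurable_coord (i : Fin 2) : Measurable (fun y : E2 => y i) := by
  fun_prop

/-- The closed axis-parallel square with lower corner `c` and side `ℓ`. -/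
def Box (c : E2) (ℓ : ℝ) : Set E2 := {y | y 0 ∈ Set.Icc (c 0) (c 0 + ℓ) ∧ y 1 ∈ Set.Icc (c 1) (c 1 + ℓ)}

lemma volume_box (c : E2) (ℓ : ℝ) (hℓ : 0 ≤ ℓ) : volume (Box c ℓ) = ENNReal.ofReal (ℓ ^ 2) := by
  unfold Box
  rw [volume_rect_Icc]
  have h1 : c 0 + ℓ - c 0 = ℓ := by ring
  have h2 : c 1 + ℓ - c 1 = ℓ := by ring
  rw [h1, h2, ← ENNReal.ofReal_mul hℓ]; congr 1; ring

lemma measurable_box (c : E2) (ℓ : ℝ) : MeasurableSet (Box c ℓ) := by
  unfold Box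
  have h0 := measurable_coord 0
  have h1 := measurable_coord 1
  exact (h0 measurableSet_Icc).inter (h1 measurableSet_Icc)

/-- Decomposition of a vector in an orthonormal frame. -/
lemma frame_expand (b : OrthonormalBasis (Fin 2) ℝ E2) (x : E2) :
    x = ⟪b 0, x⟫_ℝ • b 0 + ⟪b 1, x⟫_ℝ • b 1 := by
  have := b.sum_repr x
  rw [Fin.sum_univ_two, b.repr_apply_apply, b.repr_apply_apply] at this
  exact this.symm

/-- Counting lattice points with a packing argument. -/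
theorem card_mul_le (b : OrthonormalBasis (Fin 2) ℝ E2) (p c : E2) (δ ℓ : ℝ) (hδ : 0 < δ)
    (hℓ : 0 ≤ ℓ) (Γ : Finset (ℤ × ℤ))
    (hΓ : ∀ z ∈ Γ, ∀ ξ ∈ Set.Ico (0 : ℝ) 1, ∀ ζ ∈ Set.Ico (0 : ℝ) 1,
      p + (δ * (z.1 + ξ)) • b 0 + (δ * (z.2 + ζ)) • b 1 ∈ Box c ℓ) :
    (Γ.card : ℝ) * δ ^ 2 ≤ ℓ ^ 2 := by
  classical
  -- the map to coordinates
  let f : E2 → E2 := fun x => b.repr (x - p)
  have hf : MeasurePreserving f volume volume := by
    have h1 : MeasurePreserving (fun x : E2 => x - p) volume volume :=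
      measurePreserving_sub_right volume p
    exact (b.measurePreserving_repr).comp h1
  -- the tiles
  let S : ℤ × ℤ → Set E2 := fun z =>
    f ⁻¹' {y : E2 | y 0 ∈ Set.Ico (δ * z.1) (δ * z.1 + δ) ∧ y 1 ∈ Set.Ico (δ * z.2) (δ * z.2 + δ)}
  have hSmeasR : ∀ z : ℤ × ℤ, MeasurableSet
      {y : E2 | y 0 ∈ Set.Ico (δ * z.1) (δ * z.1 + δ) ∧ y 1 ∈ Set.Ico (δ * z.2) (δ * z.2 + δ)} := by
    intro z
    exact ((measurable_coord 0) measurableSet_Ico).inter ((measurable_coord 1) measurableSet_Ico)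
  have hSmeas : ∀ z, MeasurableSet (S z) := fun z => hf.measurable (hSmeasR z)
  have hSvol : ∀ z, volume (S z) = ENNReal.ofReal (δ ^ 2) := by
    intro z
    simp only [S]
    rw [hf.measure_preimage (hSmeasR z).nullMeasurableSet, volume_rect_Ico]
    have h1 : δ * (z.1 : ℝ) + δ - δ * z.1 = δ := by ring
    have h2 : δ * (z.2 : ℝ) + δ - δ * z.2 = δ := by ring
    rw [h1, h2, ← ENNReal.ofReal_mul hδ.le]; congr 1; ring
  -- disjointness
  have hdisj : (Γ : Set (ℤ × ℤ)).PairwiseDisjoint S := by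
    intro z _ z' _ hne
    rw [Function.onFun, Set.disjoint_left]
    intro x hx hx'
    simp only [S, Set.mem_preimage, Set.mem_ofPred_eq, Set.mem_Ico] at hx hx'
    obtain ⟨⟨h1, h2⟩, ⟨h3, h4⟩⟩ := hx
    obtain ⟨⟨h1', h2'⟩, ⟨h3', h4'⟩⟩ := hx'
    apply hne
    have key : ∀ (u v : ℤ) (t : ℝ), δ * u ≤ t → t < δ * u + δ → δ * v ≤ t → t < δ * v + δ → u = v := by
      intro u v t a1 a2 a3 a4
      have h5 : (u : ℝ) < v + 1 := by
        have : δ * (u : ℝ) < δ * (v + 1) := by nlinarith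
        exact lt_of_mul_lt_mul_left this hδ.le
      have h6 : (v : ℝ) < u + 1 := by
        have : δ * (v : ℝ) < δ * (u + 1) := by nlinarith
        exact lt_of_mul_lt_mul_left this hδ.le
      have h7 : u < v + 1 := by exact_mod_cast h5
      have h8 : v < u + 1 := by exact_mod_cast h6
      omega
    exact Prod.ext (key _ _ _ h1 h2 h1' h2') (key _ _ _ h3 h4 h3' h4')
  -- inclusion in the box
  have hsub : (⋃ z ∈ Γ, S z) ⊆ Box c ℓ := by
    intro x hx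
    simp only [Set.mem_iUnion, exists_prop] at hx
    obtain ⟨z, hz, hxz⟩ := hx
    simp only [S, Set.mem_preimage, Set.mem_ofPred_eq, Set.mem_Ico] at hxz
    obtain ⟨⟨h1, h2⟩, ⟨h3, h4⟩⟩ := hxz
    have hf0 : f x 0 = ⟪b 0, x - p⟫_ℝ := b.repr_apply_apply _ _
    have hf1 : f x 1 = ⟪b 1, x - p⟫_ℝ := b.repr_apply_apply _ _
    rw [hf0] at h1 h2
    rw [hf1] at h3 h4
    have hξ : (⟪b 0, x - p⟫_ℝ / δ - z.1) ∈ Set.Ico (0 : ℝ) 1 := by
      constructor
      · rw [sub_nonneg, le_div_iff₀ hδ]; linarith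
      · rw [sub_lt_iff_lt_add, div_lt_iff₀ hδ]; linarith
    have hζ : (⟪b 1, x - p⟫_ℝ / δ - z.2) ∈ Set.Ico (0 : ℝ) 1 := by
      constructor
      · rw [sub_nonneg, le_div_iff₀ hδ]; linarith
      · rw [sub_lt_iff_lt_add, div_lt_iff₀ hδ]; linarith
    have := hΓ z hz _ hξ _ hζ
    have heq : p + (δ * (z.1 + (⟪b 0, x - p⟫_ℝ / δ - z.1))) • b 0 +
        (δ * (z.2 + (⟪b 1, x - p⟫_ℝ / δ - z.2))) • b 1 = x := by
      have e1 : δ * (z.1 + (⟪b 0, x - p⟫_ℝ / δ - z.1)) = ⟪b 0, x - p⟫_ℝ := by field_simp; ring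
      have e2 : δ * (z.2 + (⟪b 1, x - p⟫_ℝ / δ - z.2)) = ⟪b 1, x - p⟫_ℝ := by field_simp; ring
      rw [e1, e2]
      have := frame_expand b (x - p)
      rw [add_assoc, ← this]; abel
    rwa [heq] at this
  -- measure comparison
  have hmeas : volume (⋃ z ∈ Γ, S z) = ∑ z ∈ Γ, volume (S z) :=
    measure_biUnion_finset hdisj (fun z _ => hSmeas z)
  have hle : ∑ z ∈ Γ, volume (S z) ≤ ENNReal.ofReal (ℓ ^ 2) := by
    rw [← hmeas, ← volume_box c ℓ hℓ]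
    exact measure_mono hsub
  simp only [hSvol, Finset.sum_const, nsmul_eq_mul] at hle
  have hc : (Γ.card : ℝ≥0∞) * ENNReal.ofReal (δ ^ 2) = ENNReal.ofReal ((Γ.card : ℝ) * δ ^ 2) := by
    rw [ENNReal.ofReal_mul (by positivity)]; simp
  rw [hc] at hle
  exact (ENNReal.ofReal_le_ofReal_iff (by positivity)).mp hle

end Crest.Agent.S0326Lib
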