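import Mathlib

set_option autoImplicit false

open scoped InnerProductSpace

namespace Crest.Agent.S0326Lib

/-- The Euclidean plane. -/
abbrev E2 := EuclideanSpace ℝ (Fin 2)

/-- The standard basis vectors. -/
noncomputable abbrev E0 : E2 := EuclideanSpace.single 0 (1 : ℝ)
noncomputable abbrev E1 : E2 := EuclideanSpace.single 1 (1 : ℝ)

lemma expand (x : E2) : x = x 0 • E0 + x 1 • E1 := by
  ext i; fin_cases i <;> simp [E0, E1]

/-- Matrix entries of a linear map of the plane. -/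
lemma map_coord (A : E2 →L[ℝ] E2) (x : E2) (i : Fin 2) :
    (A x) i = x 0 * (A E0) i + x 1 * (A E1) i := by
  conv_lhs => rw [expand x]
  simp

lemma trace_eq (A : E2 →L[ℝ] E2) :
    LinearMap.trace ℝ E2 A.toLinearMap = (A E0) 0 + (A E1) 1 := by
  classical
  rw [LinearMap.trace_eq_matrix_trace ℝ (EuclideanSpace.basisFun (Fin 2) ℝ).toBasis, Matrix.trace_fin_two]
  simp [LinearMap.toMatrix_apply]

lemma det_eq (A : E2 →L[ℝ] E2) :
    LinearMap.det A.toLinearMap = (A E0) 0 * (A E1) 1 - (A E1) 0 * (A E0) 1 := by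
  classical
  rw [← LinearMap.det_toMatrix (EuclideanSpace.basisFun (Fin 2) ℝ).toBasis, Matrix.det_fin_two]
  simp [LinearMap.toMatrix_apply]

lemma inner_coord (x y : E2) : ⟪x, y⟫_ℝ = x 0 * y 0 + x 1 * y 1 := by
  simp [PiLp.inner_apply, Fin.sum_univ_two]; ring

/-- A traceless endomorphism of the plane has an adapted orthonormal frame. -/
theorem exists_frame (A : E2 →L[ℝ] E2) (htr : LinearMap.trace ℝ E2 A.toLinearMap = 0) :
    ∃ (b : OrthonormalBasis (Fin 2) ℝ E2) (α β : ℝ),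
      A (b 0) = β • b 1 ∧ A (b 1) = α • b 0 ∧ α * β = - LinearMap.det A.toLinearMap := by
  classical
  rw [trace_eq] at htr
  set p := (A E0) 0 with hp
  set q := (A E1) 0 with hq
  set r := (A E0) 1 with hr
  set t := (A E1) 1 with ht
  have htp : t = -p := by linarith
  -- the angle
  let z : ℂ := ⟨(q + r) / 2, -p⟩
  let θ : ℝ := Complex.arg z / 2
  let c := Real.cos θ
  let s := Real.sin θ
  have hcs : c ^ 2 + s ^ 2 = 1 := by
    simp only [c, s]; exact Real.cos_sq_add_sin_sq θ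
  have h2θ : 2 * θ = Complex.arg z := by simp only [θ]; ring
  have hcos : ‖z‖ * (c ^ 2 - s ^ 2) = (q + r) / 2 := by
    have h := Complex.norm_mul_cos_arg z
    rw [← h2θ, Real.cos_two_mul] at h
    have h' : c ^ 2 - s ^ 2 = 2 * Real.cos θ ^ 2 - 1 := by
      simp only [c, s]; have := Real.cos_sq_add_sin_sq θ; nlinarith
    rw [h']; simpa [z] using h
  have hsin : ‖z‖ * (2 * s * c) = -p := by
    have h := Complex.norm_mul_sin_arg z
    rw [← h2θ, Real.sin_two_mul] at h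
    simpa [z, c, s] using h
  have hdiag : p * (c ^ 2 - s ^ 2) + (q + r) * (c * s) = 0 := by
    have h1 : (q + r) = 2 * (‖z‖ * (c ^ 2 - s ^ 2)) := by rw [hcos]; ring
    have h2 : p = -(‖z‖ * (2 * s * c)) := by rw [hsin]; ring
    rw [h1]; nth_rewrite 1 [h2]; ring
  -- the two frame vectors
  let e₀ : E2 := !₂[c, s]
  let e₁ : E2 := !₂[-s, c]
  have he₀0 : e₀ 0 = c := by simp [e₀]
  have he₀1 : e₀ 1 = s := by simp [e₀]
  have he₁0 : e₁ 0 = -s := by simp [e₁]
  have he₁1 : e₁ 1 = c := by simp [e₁]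
  have hon : Orthonormal ℝ ![e₀, e₁] := by
    have h00 : ⟪e₀, e₀⟫_ℝ = 1 := by rw [inner_coord, he₀0, he₀1]; linear_combination hcs
    have h11 : ⟪e₁, e₁⟫_ℝ = 1 := by rw [inner_coord, he₁0, he₁1]; linear_combination hcs
    have h01 : ⟪e₀, e₁⟫_ℝ = 0 := by rw [inner_coord, he₀0, he₀1, he₁0, he₁1]; ring
    have h10 : ⟪e₁, e₀⟫_ℝ = 0 := by rw [inner_coord, he₀0, he₀1, he₁0, he₁1]; ring
    rw [orthonormal_iff_ite]
    intro i j
    fin_cases i <;> fin_cases j
    · simpa using h00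
    · simpa using h01
    · simpa using h10
    · simpa using h11
  let b : OrthonormalBasis (Fin 2) ℝ E2 :=
    (basisOfOrthonormalOfCardEqFinrank hon (by simp)).toOrthonormalBasis (by
      simpa using hon)
  have hb0 : b 0 = e₀ := by simp [b]
  have hb1 : b 1 = e₁ := by simp [b]
  -- coordinates of `A e₀`, `A e₁`
  have hA00 : (A e₀) 0 = c * p + s * q := by rw [map_coord, he₀0, he₀1]
  have hA01 : (A e₀) 1 = c * r + s * t := by rw [map_coord, he₀0, he₀1]
  have hA10 : (A e₁) 0 = -s * p + c * q := by rw [map_coord, he₁0, he₁1]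
  have hA11 : (A e₁) 1 = -s * r + c * t := by rw [map_coord, he₁0, he₁1]
  let β : ℝ := ⟪e₁, A e₀⟫_ℝ
  let α : ℝ := ⟪e₀, A e₁⟫_ℝ
  have hd0 : ⟪e₀, A e₀⟫_ℝ = 0 := by
    rw [inner_coord, he₀0, he₀1, hA00, hA01, htp]
    linear_combination hdiag
  have hd1 : ⟪e₁, A e₁⟫_ℝ = 0 := by
    rw [inner_coord, he₁0, he₁1, hA10, hA11, htp]
    linear_combination -hdiag
  have hexp : ∀ x : E2, x = ⟪e₀, x⟫_ℝ • e₀ + ⟪e₁, x⟫_ℝ • e₁ := by
    intro x
    have := b.sum_repr x
    rw [Fin.sum_univ_two, b.repr_apply_apply, b.repr_apply_apply, hb0, hb1] at this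
    exact this.symm
  refine ⟨b, α, β, ?_, ?_, ?_⟩
  · rw [hb0, hb1]
    conv_lhs => rw [hexp (A e₀), hd0]
    simp [β]
  · rw [hb0, hb1]
    conv_lhs => rw [hexp (A e₁), hd1]
    simp [α]
  · rw [det_eq, ← hp, ← hq, ← hr, ← ht]
    have hβ : β = -s * (c * p + s * q) + c * (c * r + s * t) := by
      simp only [β]; rw [inner_coord, he₁0, he₁1, hA00, hA01]
    have hα : α = c * (-s * p + c * q) + s * (-s * r + c * t) := by
      simp only [α]; rw [inner_coord, he₀0, he₀1, hA10, hA11]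
    rw [hα, hβ, htp]
    have hcs2 : (c ^ 2 + s ^ 2) ^ 2 = 1 := by rw [hcs]; norm_num
    -- `det` identity together with the vanishing of the diagonal
    linear_combination (p ^ 2 + q * r) * hcs2 + (-(p * (c ^ 2 - s ^ 2) + (q + r) * (c * s))) * hdiag
end Crest.Agent.S0326Lib
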