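import Mathlib

set_option autoImplicit false

namespace Crest.Agent.S0326Lib

/-- discrete intermediate value theorem on ℤ with steps of size at most 1 : a function tending from
below `-1/2` to above `1/2` with steps at most `1` takes a value in `[-1/2,1/2]`. -/
lemma discrete_ivt (f : ℤ → ℝ) (hstep : ∀ n, |f (n + 1) - f n| ≤ 1)
    (lo hi : ℤ) (hlohi : lo ≤ hi) (hlo : f lo ≤ 1 / 2) (hhi : -(1 / 2) ≤ f hi) :
    ∃ n, lo ≤ n ∧ n ≤ hi ∧ |f n| ≤ 1 / 2 := by
  -- induction on the distance
  obtain ⟨d, hd⟩ := Int.eq_ofNat_of_zero_le (sub_nonneg.mpr hlohi)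
  induction d generalizing lo with
  | zero =>
    have : lo = hi := by simp at hd; omega
    subst this
    exact ⟨lo, le_rfl, le_rfl, abs_le.mpr ⟨hhi, hlo⟩⟩
  | succ d ih =>
    by_cases h : -(1 / 2) ≤ f lo
    · exact ⟨lo, le_rfl, hlohi, abs_le.mpr ⟨h, hlo⟩⟩
    · push Not at h
      have hs := abs_le.mp (hstep lo)
      have hlo' : f (lo + 1) ≤ 1 / 2 := by linarith [hs.2]
      have hle : lo + 1 ≤ hi := by push_cast at hd; omega
      obtain ⟨n, h1, h2, h3⟩ := ih (lo + 1) hle hlo' (by push_cast at hd ⊢; omega)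
      exact ⟨n, by omega, h2, h3⟩

/-- round a real to a nearest integer with `|x - round x| ≤ 1/2`. -/
lemma abs_sub_round_le (x : ℝ) : |x - round x| ≤ 1 / 2 := abs_sub_round x

/-- The core lattice covering lemma, in the case `0 ≤ b ≤ a`, `ab < 1`. -/
lemma lattice_aux (a b : ℝ) (hb : 0 ≤ b) (hba : b ≤ a) (hab : a * b < 1) (x y : ℝ) :
    ∃ m n : ℤ, |x - m - n * a| ≤ 1 / 2 ∧ |y - m * b - n| ≤ 1 / 2 := by
  -- `m n` = a nearest integer to `x - n a`, chosen so that the increment is `-⌈a⌉` or `-⌊a⌋`.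
  -- we use `m n = ⌈x - n a - 1/2⌉`, which satisfies `x - n a - 1/2 ≤ m n < x - n a + 1/2`.
  let m : ℤ → ℤ := fun n => ⌈x - n * a - 1 / 2⌉
  have hm1 : ∀ n : ℤ, x - n * a - 1 / 2 ≤ m n := fun n => Int.le_ceil _
  have hm2 : ∀ n : ℤ, (m n : ℝ) < x - n * a + 1 / 2 := fun n => by
    have := Int.ceil_lt_add_one (x - n * a - 1 / 2)
    simp only [m]; linarith
  have hmabs : ∀ n : ℤ, |x - m n - n * a| ≤ 1 / 2 := fun n => by
    rw [abs_le]; constructor <;> [linarith [hm2 n]; linarith [hm1 n]]
  let f : ℤ → ℝ := fun n => (m n : ℝ) * b + n - y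
  -- increment of `m`
  have hinc : ∀ n : ℤ, (m (n + 1) : ℝ) - m n ≤ 0 ∧ -(a + 1) ≤ (m (n + 1) : ℝ) - m n := by
    intro n
    have h1 := hm1 n; have h2 := hm2 n; have h3 := hm1 (n + 1); have h4 := hm2 (n + 1)
    push_cast at h3 h4
    have ha : 0 ≤ a := le_trans hb hba
    constructor
    · -- integer strictly less than 1 is at most 0
      have hlt : (m (n + 1) : ℝ) - m n < 1 := by nlinarith
      have : m (n + 1) - m n < 1 := by exact_mod_cast hlt
      have h5 : m (n + 1) - m n ≤ 0 := by omega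
      exact_mod_cast h5
    · nlinarith
  have hstep : ∀ n, |f (n + 1) - f n| ≤ 1 := by
    intro n
    have ⟨h1, h2⟩ := hinc n
    have heq : f (n + 1) - f n = ((m (n + 1) : ℝ) - m n) * b + 1 := by
      simp only [f]; push_cast; ring
    rw [heq, abs_le]
    constructor
    · -- `-(a+1) b + 1 ≥ -1` because `a b < 1`, `b ≤ ... `
      have hb1 : b ≤ 1 := by
        by_contra hcon; push Not at hcon; nlinarith
      nlinarith
    · nlinarith
  -- behaviour at infinity
  have hdrift : 0 < 1 - a * b := by linarith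
  -- lower and upper estimates of `f`
  have hfup : ∀ n : ℤ, (x - n * a - 1 / 2) * b + n - y ≤ f n := by
    intro n
    have := mul_le_mul_of_nonneg_right (hm1 n) hb
    simp only [f]; linarith
  have hflo : ∀ n : ℤ, f n ≤ (x - n * a + 1 / 2) * b + n - y := by
    intro n
    have := mul_le_mul_of_nonneg_right (hm2 n).le hb
    simp only [f]; linarith
  -- find `hi` with `f hi ≥ 0`, `lo` with `f lo ≤ 0`
  obtain ⟨N, hN⟩ := exists_int_gt ((|x * b - b / 2 - y| + |x * b + b / 2 - y| + 1) / (1 - a * b))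
  have hN' : |x * b - b / 2 - y| + |x * b + b / 2 - y| + 1 < N * (1 - a * b) := by
    rwa [div_lt_iff₀ hdrift] at hN
  have hNpos : 0 < N := by
    have hp : (0 : ℝ) < N * (1 - a * b) := by
      have := abs_nonneg (x * b - b / 2 - y); have := abs_nonneg (x * b + b / 2 - y); linarith
    have : (0 : ℝ) < N := by
      by_contra hc; push Not at hc; nlinarith
    exact_mod_cast this
  have hhi : -(1 / 2) ≤ f N := by
    have := hfup N
    have h1 := neg_abs_le (x * b - b / 2 - y)
    nlinarith [abs_nonneg (x * b + b / 2 - y)]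
  have hlo : f (-N) ≤ 1 / 2 := by
    have := hflo (-N)
    have h1 := le_abs_self (x * b + b / 2 - y)
    push_cast at this
    nlinarith [abs_nonneg (x * b - b / 2 - y)]
  obtain ⟨n, -, -, hn⟩ := discrete_ivt f hstep (-N) N (by omega) hlo hhi
  refine ⟨m n, n, hmabs n, ?_⟩
  have : y - m n * b - n = -f n := by simp only [f]; ring
  rw [this, abs_neg]; exact hn

/-- **Lattice covering lemma.** If `a b ≥ 0` and `a b < 1` then the unit square centred at the origin
and the lattice generated by `(1, b)`, `(a, 1)` cover the plane. -/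
theorem lattice_cover (a b : ℝ) (hab0 : 0 ≤ a * b) (hab : a * b < 1) (x y : ℝ) :
    ∃ m n : ℤ, |x - m - n * a| ≤ 1 / 2 ∧ |y - m * b - n| ≤ 1 / 2 := by
  -- reduce to nonnegative `a`, `b` by a reflection, and to `b ≤ a` by a swap
  have main : ∀ a b : ℝ, 0 ≤ a → 0 ≤ b → a * b < 1 → ∀ x y : ℝ,
      ∃ m n : ℤ, |x - m - n * a| ≤ 1 / 2 ∧ |y - m * b - n| ≤ 1 / 2 := by
    intro a b ha hb hab x y
    rcases le_total b a with h | h
    · exact lattice_aux a b hb h hab x y
    · obtain ⟨m, n, h1, h2⟩ := lattice_aux b a ha h (by linarith [mul_comm a b]) y x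
      exact ⟨n, m, by convert h2 using 2; ring, by convert h1 using 2; ring⟩
  -- signs: `a b ≥ 0`: either both nonnegative or both nonpositive
  by_cases hsign : 0 ≤ a ∧ 0 ≤ b
  · exact main a b hsign.1 hsign.2 hab x y
  · have hneg : a ≤ 0 ∧ b ≤ 0 := by
      by_contra hcon
      rw [not_and_or] at hcon hsign
      push Not at hcon hsign
      rcases hcon with h1 | h1 <;> rcases hsign with h2 | h2
      · linarith
      · nlinarith
      · nlinarith
      · linarith
    -- apply to `(-a, -b)` and `(-m', n')`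
    obtain ⟨m, n, h1, h2⟩ := main (-a) (-b) (by linarith [hneg.1]) (by linarith [hneg.2])
      (by nlinarith) x (-y)
    refine ⟨m, -n, ?_, ?_⟩
    · convert h1 using 2; push_cast; ring
    · have : y - m * b - ((-n : ℤ) : ℝ) = -(-y - m * (-b) - n) := by push_cast; ring
      rw [this, abs_neg]; exact h2

end Crest.Agent.S0326Lib
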