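import Crest.Agent.S0326Lib.Lattice
import Crest.Agent.S0326Lib.Count

set_option autoImplicit false

open scoped InnerProductSpace

namespace Crest.Agent.S0326Lib

/-- grid points attached to a frame. -/
noncomputable def grid (b : OrthonormalBasis (Fin 2) ℝ E2) (p : E2) (δ : ℝ) (z : ℤ × ℤ) : E2 :=
  p + (δ * z.1) • b 0 + (δ * z.2) • b 1

lemma grid_sub (b : OrthonormalBasis (Fin 2) ℝ E2) (p : E2) (δ : ℝ) (z : ℤ × ℤ) :
    grid b p δ z - p = (δ * z.1) • b 0 + (δ * z.2) • b 1 := by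
  simp only [grid]; abel

lemma inner_b00 (b : OrthonormalBasis (Fin 2) ℝ E2) : ⟪b 0, b 0⟫_ℝ = 1 := by
  simp
lemma inner_b11 (b : OrthonormalBasis (Fin 2) ℝ E2) : ⟪b 1, b 1⟫_ℝ = 1 := by
  simp
lemma inner_b01 (b : OrthonormalBasis (Fin 2) ℝ E2) : ⟪b 0, b 1⟫_ℝ = 0 :=
  b.orthonormal.2 (by decide)
lemma inner_b10 (b : OrthonormalBasis (Fin 2) ℝ E2) : ⟪b 1, b 0⟫_ℝ = 0 :=
  b.orthonormal.2 (by decide)

/-- Every point of the plane is, at time `s`, in a square of the moving lattice. -/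
theorem local_cover (A : E2 →L[ℝ] E2) (b : OrthonormalBasis (Fin 2) ℝ E2) (α β : ℝ)
    (hA0 : A (b 0) = β • b 1) (hA1 : A (b 1) = α • b 0) (s : ℝ)
    (h0 : 0 ≤ α * β) (h1 : s ^ 2 * (α * β) < 1) (δ : ℝ) (hδ : 0 < δ) (p v x : E2) :
    ∃ z : ℤ × ℤ, ∃ ξ ∈ Set.Icc (-(1 / 2) : ℝ) (1 / 2), ∃ ζ ∈ Set.Icc (-(1 / 2) : ℝ) (1 / 2),
      x = grid b p δ z + s • (v + A (grid b p δ z - p)) + (δ * ξ) • b 0 + (δ * ζ) • b 1 := by
  set w := x - p - s • v with hw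
  have hab0 : 0 ≤ (s * α) * (s * β) := by
    have : (s * α) * (s * β) = s ^ 2 * (α * β) := by ring
    rw [this]; positivity
  have hab1 : (s * α) * (s * β) < 1 := by
    have : (s * α) * (s * β) = s ^ 2 * (α * β) := by ring
    rwa [this]
  obtain ⟨m, n, hm, hn⟩ := lattice_cover (s * α) (s * β) hab0 hab1 (⟪b 0, w⟫_ℝ / δ) (⟪b 1, w⟫_ℝ / δ)
  rw [abs_le] at hm hn
  refine ⟨(m, n), _, ⟨hm.1, hm.2⟩, _, ⟨hn.1, hn.2⟩, ?_⟩
  have hexp := frame_expand b w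
  have hAg : A (grid b p δ (m, n) - p) = (δ * m * β) • b 1 + (δ * n * α) • b 0 := by
    rw [grid_sub]
    simp only [map_add, map_smul, hA0, hA1, smul_smul]
  rw [hAg]
  have hx : x = p + s • v + w := by rw [hw]; abel
  rw [hx]
  nth_rewrite 1 [hexp]
  simp only [grid]
  have e0 : ⟪b 0, w⟫_ℝ = δ * m + s * (δ * n * α) + δ * (⟪b 0, w⟫_ℝ / δ - m - n * (s * α)) := by
    field_simp; ring
  have e1 : ⟪b 1, w⟫_ℝ = δ * n + s * (δ * m * β) + δ * (⟪b 1, w⟫_ℝ / δ - m * (s * β) - n) := by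
    field_simp; ring
  nth_rewrite 1 [e0]
  nth_rewrite 1 [e1]
  simp only [smul_add, add_smul, smul_smul]
  abel

/-- Localisation of the lattice point found by `local_cover`. -/
theorem localize (A : E2 →L[ℝ] E2) (b : OrthonormalBasis (Fin 2) ℝ E2) (α β : ℝ)
    (hA0 : A (b 0) = β • b 1) (hA1 : A (b 1) = α • b 0) (s : ℝ) (Λ c₀ : ℝ)
    (hα : |s * α| ≤ Λ) (hβ : |s * β| ≤ Λ) (hc₀ : 0 < c₀) (hc : c₀ ≤ 1 - s ^ 2 * (α * β))
    (δ : ℝ) (hδ : 0 < δ) (p v q p' V' : E2) (ξ ζ : ℝ)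
    (hξ : ξ ∈ Set.Icc (-(1 / 2) : ℝ) (1 / 2)) (hζ : ζ ∈ Set.Icc (-(1 / 2) : ℝ) (1 / 2))
    (h : p' + s • V' = q + s • (v + A (q - p)) + (δ * ξ) • b 0 + (δ * ζ) • b 1) :
    ‖q - p'‖ ≤ 2 * (1 + Λ) * (‖s • (V' - v - A (p' - p))‖ + δ) / c₀ := by
  set u := q - p' with hu
  set r := s • (V' - v - A (p' - p)) with hr
  have hΛ : 0 ≤ Λ := le_trans (abs_nonneg _) hα
  have hAu : A u = (⟪b 0, u⟫_ℝ * β) • b 1 + (⟪b 1, u⟫_ℝ * α) • b 0 := by
    conv_lhs => rw [frame_expand b u]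
    simp only [map_add, map_smul, hA0, hA1, smul_smul]
  have hqp : q - p = u + (p' - p) := by rw [hu]; abel
  have heq : u + s • A u = r - (δ * ξ) • b 0 - (δ * ζ) • b 1 := by
    rw [hr]
    rw [hqp, map_add] at h
    have key : ∀ Au Ap E0 E1 : E2, p' + s • V' = q + s • (v + (Au + Ap)) + E0 + E1 →
        (q - p') + s • Au = s • (V' - v - Ap) - E0 - E1 := by
      intro Au Ap E0 E1 hh
      have h2 : (q - p') + s • Au - (s • (V' - v - Ap) - E0 - E1) =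
          -((p' + s • V') - (q + s • (v + (Au + Ap)) + E0 + E1)) := by
        simp only [smul_add, smul_sub]; abel
      rw [hh, sub_self, neg_zero, sub_eq_zero] at h2
      exact h2
    exact key _ _ _ _ h
  -- inner products with the frame
  have hr0 : |⟪b 0, r⟫_ℝ| ≤ ‖r‖ := by
    have := abs_real_inner_le_norm (b 0) r
    simpa using this
  have hr1 : |⟪b 1, r⟫_ℝ| ≤ ‖r‖ := by
    have := abs_real_inner_le_norm (b 1) r
    simpa using this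
  have h00 := inner_b00 b
  have h11 := inner_b11 b
  have h01 := inner_b01 b
  have h10 := inner_b10 b
  have e0 : ⟪b 0, u⟫_ℝ + s * α * ⟪b 1, u⟫_ℝ = ⟪b 0, r⟫_ℝ - δ * ξ := by
    have := congrArg (fun y => ⟪b 0, y⟫_ℝ) heq
    simp only [inner_add_right, inner_sub_right, inner_smul_right, hAu, h00, h01] at this
    linarith
  have e1 : ⟪b 1, u⟫_ℝ + s * β * ⟪b 0, u⟫_ℝ = ⟪b 1, r⟫_ℝ - δ * ζ := by
    have := congrArg (fun y => ⟪b 1, y⟫_ℝ) heq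
    simp only [inner_add_right, inner_sub_right, inner_smul_right, hAu, h11, h10] at this
    linarith
  set u0 := ⟪b 0, u⟫_ℝ with hu0
  set u1 := ⟪b 1, u⟫_ℝ with hu1
  set r0 := ⟪b 0, r⟫_ℝ
  set r1 := ⟪b 1, r⟫_ℝ
  have hk0 : (1 - s ^ 2 * (α * β)) * u0 = (r0 - δ * ξ) - (s * α) * (r1 - δ * ζ) := by
    rw [← e0, ← e1]; ring
  have hk1 : (1 - s ^ 2 * (α * β)) * u1 = (r1 - δ * ζ) - (s * β) * (r0 - δ * ξ) := by
    rw [← e0, ← e1]; ring
  have hξ' : |δ * ξ| ≤ δ := by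
    rw [abs_mul, abs_of_pos hδ]
    have : |ξ| ≤ 1 := by rw [abs_le]; constructor <;> linarith [hξ.1, hξ.2]
    nlinarith
  have hζ' : |δ * ζ| ≤ δ := by
    rw [abs_mul, abs_of_pos hδ]
    have : |ζ| ≤ 1 := by rw [abs_le]; constructor <;> linarith [hζ.1, hζ.2]
    nlinarith
  have hb0 : |r0 - δ * ξ| ≤ ‖r‖ + δ := (abs_sub _ _).trans (add_le_add hr0 hξ')
  have hb1 : |r1 - δ * ζ| ≤ ‖r‖ + δ := (abs_sub _ _).trans (add_le_add hr1 hζ')
  have hsum : 0 ≤ ‖r‖ + δ := by positivity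
  have hmul : ∀ t X : ℝ, |t| ≤ Λ → |X| ≤ ‖r‖ + δ → |t * X| ≤ Λ * (‖r‖ + δ) := by
    intro t X ht hX
    rw [abs_mul]
    exact mul_le_mul ht hX (abs_nonneg _) hΛ
  have hbu0 : c₀ * |u0| ≤ (1 + Λ) * (‖r‖ + δ) := by
    have h1 : |(1 - s ^ 2 * (α * β)) * u0| ≤ (1 + Λ) * (‖r‖ + δ) := by
      rw [hk0]
      have := (abs_sub ((r0 - δ * ξ)) ((s * α) * (r1 - δ * ζ))).trans
        (add_le_add hb0 (hmul _ _ hα hb1))
      linarith
    have h2 : c₀ * |u0| ≤ |(1 - s ^ 2 * (α * β)) * u0| := by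
      rw [abs_mul, abs_of_pos (lt_of_lt_of_le hc₀ hc)]
      exact mul_le_mul_of_nonneg_right hc (abs_nonneg _)
    linarith
  have hbu1 : c₀ * |u1| ≤ (1 + Λ) * (‖r‖ + δ) := by
    have h1 : |(1 - s ^ 2 * (α * β)) * u1| ≤ (1 + Λ) * (‖r‖ + δ) := by
      rw [hk1]
      have := (abs_sub ((r1 - δ * ζ)) ((s * β) * (r0 - δ * ξ))).trans
        (add_le_add hb1 (hmul _ _ hβ hb0))
      linarith
    have h2 : c₀ * |u1| ≤ |(1 - s ^ 2 * (α * β)) * u1| := by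
      rw [abs_mul, abs_of_pos (lt_of_lt_of_le hc₀ hc)]
      exact mul_le_mul_of_nonneg_right hc (abs_nonneg _)
    linarith
  have hnorm : ‖u‖ ≤ |u0| + |u1| := by
    conv_lhs => rw [frame_expand b u]
    refine (norm_add_le _ _).trans ?_
    simp only [norm_smul, Real.norm_eq_abs, b.norm_eq_one, mul_one]
    exact le_rfl
  rw [le_div_iff₀ hc₀]
  nlinarith

end Crest.Agent.S0326Lib
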