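import Crest.Agent.S0326Lib.Cells

set_option autoImplicit false

open scoped InnerProductSpace ENNReal
open MeasureTheory

namespace Crest.Agent.S0326Lib

/-- The weight. -/
noncomputable def J (h : ℝ) (g : E2) : ℝ := 1 / Real.sqrt (1 + (g 0) ^ 2 + h ^ 2 * (g 1) ^ 2)

lemma J_den_pos (h : ℝ) (g : E2) : 0 < Real.sqrt (1 + (g 0) ^ 2 + h ^ 2 * (g 1) ^ 2) :=
  Real.sqrt_pos.mpr (by positivity)

lemma J_nonneg (h : ℝ) (g : E2) : 0 ≤ J h g := (div_pos one_pos (J_den_pos h g)).le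

lemma J_le_one (h : ℝ) (g : E2) : J h g ≤ 1 := by
  unfold J
  rw [div_le_one (J_den_pos h g)]
  apply Real.one_le_sqrt.mpr
  nlinarith [sq_nonneg (g 0), sq_nonneg (h * g 1)]

lemma J_continuous (h : ℝ) : Continuous (J h) := by
  unfold J
  refine continuous_const.div ?_ (fun g => (J_den_pos h g).ne')
  fun_prop

lemma continuous_coord (i : Fin 2) : Continuous (fun y : E2 => y i) := by fun_prop

/-- grid points that lie in a box are finitely many -/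
lemma finite_grid_box (b : OrthonormalBasis (Fin 2) ℝ E2) (p : E2) (δ : ℝ) (hδ : 0 < δ) (c : E2) (ℓ : ℝ) :
    {z : ℤ × ℤ | grid b p δ z ∈ Box c ℓ}.Finite := by
  set R : ℝ := |c 0 - p 0| + |c 1 - p 1| + 2 * |ℓ| + 1 with hR
  let N : ℤ := ⌈R / δ⌉
  refine (Set.finite_Icc ((-N, -N) : ℤ × ℤ) (N, N)).subset ?_
  intro z hz
  obtain ⟨⟨h1, h2⟩, ⟨h3, h4⟩⟩ := hz
  set q := grid b p δ z with hq
  have hnorm : ‖q - p‖ ≤ R := by
    refine (norm_le_coord_sum _).trans ?_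
    have e0 : |(q - p) 0| ≤ |c 0 - p 0| + |ℓ| := by
      have : (q - p) 0 = (q 0 - c 0) + (c 0 - p 0) := by simp
      rw [this, add_comm]
      refine (abs_add_le _ _).trans (add_le_add le_rfl ?_)
      rw [abs_le]
      constructor <;> linarith [le_abs_self ℓ, neg_abs_le ℓ, abs_nonneg ℓ]
    have e1 : |(q - p) 1| ≤ |c 1 - p 1| + |ℓ| := by
      have : (q - p) 1 = (q 1 - c 1) + (c 1 - p 1) := by simp
      rw [this, add_comm]
      refine (abs_add_le _ _).trans (add_le_add le_rfl ?_)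
      rw [abs_le]
      constructor <;> linarith [le_abs_self ℓ, neg_abs_le ℓ, abs_nonneg ℓ]
    simp only [hR]; linarith
  have hsub := grid_sub b p δ z
  have hi0 : ⟪b 0, q - p⟫_ℝ = δ * z.1 := by
    rw [hq, hsub]
    simp [inner_add_right, inner_smul_right, inner_b01 b]
  have hi1 : ⟪b 1, q - p⟫_ℝ = δ * z.2 := by
    rw [hq, hsub]
    simp [inner_add_right, inner_smul_right, inner_b10 b]
  have hb0 : |⟪b 0, q - p⟫_ℝ| ≤ R := by
    have := abs_real_inner_le_norm (b 0) (q - p)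
    simp only [b.norm_eq_one, one_mul] at this
    exact this.trans hnorm
  have hb1 : |⟪b 1, q - p⟫_ℝ| ≤ R := by
    have := abs_real_inner_le_norm (b 1) (q - p)
    simp only [b.norm_eq_one, one_mul] at this
    exact this.trans hnorm
  have hceil := Int.le_ceil (R / δ)
  have hRδ : R = R / δ * δ := by field_simp
  have key : ∀ u : ℤ, |δ * (u : ℝ)| ≤ R → -N ≤ u ∧ u ≤ N := by
    intro u hu
    rw [abs_le] at hu
    constructor
    · have : (-(N : ℝ)) ≤ u := by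
        have h6 : -(N : ℝ) * δ ≤ u * δ := by
          have : (R / δ) * δ ≤ N * δ := mul_le_mul_of_nonneg_right hceil hδ.le
          nlinarith
        exact le_of_mul_le_mul_right h6 hδ
      exact_mod_cast this
    · have : (u : ℝ) ≤ N := by
        have h6 : (u : ℝ) * δ ≤ N * δ := by
          have : (R / δ) * δ ≤ N * δ := mul_le_mul_of_nonneg_right hceil hδ.le
          nlinarith
        exact le_of_mul_le_mul_right h6 hδ
      exact_mod_cast this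
  rw [hi0] at hb0
  rw [hi1] at hb1
  obtain ⟨a, a'⟩ := key _ hb0
  obtain ⟨d, d'⟩ := key _ hb1
  exact ⟨Prod.mk_le_mk.mpr ⟨a, d⟩, Prod.mk_le_mk.mpr ⟨a', d'⟩⟩

/-- transfer from a finite type to `Fin k`. -/
theorem to_fin (E : Set (ℝ × E2)) (h I ε : ℝ) {ι : Type} [Fintype ι] (c a b g : ι → E2)
    (h1 : ∀ i, a i ≠ 0 ∧ ‖b i‖ = ‖a i‖ ∧ ⟪a i, b i⟫_ℝ = 0)
    (h2 : E ⊆ ⋃ i, {z : ℝ × E2 | ∃ x ∈ Set.Icc (0 : ℝ) 1, ∃ y ∈ Set.Icc (0 : ℝ) 1,
          z.2 = c i + x • a i + y • b i + z.1 • g i})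
    (h3 : ∑ i, ‖a i‖ ^ 2 / Real.sqrt (1 + (g i 0) ^ 2 + h ^ 2 * (g i 1) ^ 2) ≤ I + ε) :
    ∃ (k : ℕ) (c a b g : Fin k → E2),
      (∀ i, a i ≠ 0 ∧ ‖b i‖ = ‖a i‖ ∧ ⟪a i, b i⟫_ℝ = 0) ∧
      E ⊆ ⋃ i, {z : ℝ × E2 | ∃ x ∈ Set.Icc (0 : ℝ) 1, ∃ y ∈ Set.Icc (0 : ℝ) 1,
          z.2 = c i + x • a i + y • b i + z.1 • g i} ∧
      ∑ i, ‖a i‖ ^ 2 / Real.sqrt (1 + (g i 0) ^ 2 + h ^ 2 * (g i 1) ^ 2) ≤ I + ε := by
  let e := Fintype.equivFin ι
  refine ⟨Fintype.card ι, c ∘ e.symm, a ∘ e.symm, b ∘ e.symm, g ∘ e.symm, ?_, ?_, ?_⟩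
  · intro i; exact h1 _
  · intro z hz
    obtain ⟨i, hi⟩ := Set.mem_iUnion.mp (h2 hz)
    refine Set.mem_iUnion.mpr ⟨e i, ?_⟩
    simpa using hi
  · have := Equiv.sum_comp e.symm
      (fun i => ‖a i‖ ^ 2 / Real.sqrt (1 + (g i 0) ^ 2 + h ^ 2 * (g i 1) ^ 2))
    simp only [Function.comp]
    rw [this]; exact h3

end Crest.Agent.S0326Lib
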